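import Vale.Agent.P089A.Final2

namespace Vale.Agent.Results.P089.AssemblyMap

open Vale.Agent.P089A.St

theorem result : ∃ (G : Type) (_ : Group G) (_ : Countable G) (μ : KCycle G → K0Cr G),
    (∀ (z : KCycle G) (x : K0Cr G), z.HasIndex x ↔ μ z = x) ∧ ¬Function.Surjective μ := by
  obtain ⟨G, _, _, x, hx⟩ := exists_not_mem_assemblyRange
  obtain ⟨μ, h1, h2⟩ := exists_mu G
  exact ⟨G, inferInstance, inferInstance, μ, h1, fun h => hx (h2 (h x))⟩

end Vale.Agent.Results.P089.AssemblyMap
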