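import Vale.Agent.P089.Trace
import Vale.Agent.P089.Stmt

namespace Vale.Agent.Results.P089.IrrationalTrace

open Vale.Agent.P089

theorem result : ∃ (G : Type) (_ : Group G) (_ : Countable G), ∃ q ∈ Stmt.CStarRed G,
    Stmt.IsProjection q ∧ ∃ t : ℝ, Irrational t ∧ Stmt.trace q = (t : ℂ) := by
  by_contra h
  refine traceValues_uncountable ((Set.countable_range ((↑) : ℚ → ℝ)).mono ?_)
  rintro t ⟨G, _, _, q, h1, h2, h3, h4⟩
  by_contra ht
  exact h ⟨G, _, inferInstance, q, h1, ⟨h2, h3⟩, t, ht,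
    (Vale.Agent.P086.inner_dl_left (1 : G) _).symm.trans h4⟩

end Vale.Agent.Results.P089.IrrationalTrace
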