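import Vale.Agent.P089A.Final

namespace Vale.Agent.Results.P089.NotSurjective

open Vale.Agent.P089A Vale.Agent.P089A.St

theorem result : ∃ (G : Type) (_ : Group G) (_ : Countable G),
    (∀ (X : Type) [TopologicalSpace X] [T2Space X] [LocallyCompactSpace X] [MulAction G X]
      [ContinuousConstSMul G X] [ProperlyDiscontinuousSMul G X] (H : Hilb)
      (Z : FredMod G X H.car) (c : ZeroAtInftyContinuousMap X ℂ),
      IsCutoff G c → ∃ x : K0Cr G, Assembles Z c x) ∧
    ∃ x : K0Cr G, x ∉ assemblyRange G := by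
  obtain ⟨G, _, _, x, hx⟩ := exists_not_mem_assemblyRange
  exact ⟨G, inferInstance, inferInstance,
    fun X _ _ _ _ _ _ H Z c hc => exists_assembles Z hc, x, hx⟩

end Vale.Agent.Results.P089.NotSurjective
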